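import Mathlib

namespace Vale.Agent.Lib.P186

/-- Vertex form of the thin-triangle condition for a graph: for every geodesic triangle
(three vertices joined by three shortest edge paths), every vertex of one side is within
graph distance `δ` of some vertex of one of the other two sides. -/
def ThinTriangles {V : Type*} (Γ : SimpleGraph V) (δ : ℕ) : Prop :=
  ∀ (x y z : V) (p : Γ.Walk x y) (q : Γ.Walk y z) (r : Γ.Walk x z),
    p.length = Γ.dist x y → q.length = Γ.dist y z → r.length = Γ.dist x z →
    ∀ a ∈ p.support, ∃ b, (b ∈ q.support ∨ b ∈ r.support) ∧ Γ.dist a b ≤ δ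

/-- A group is word-hyperbolic if it has a finite generating set whose Cayley graph has
`δ`-thin geodesic triangles for some `δ`. -/
def IsWordHyperbolic (G : Type*) [Group G] : Prop :=
  ∃ S : Set G, S.Finite ∧ Subgroup.closure S = ⊤ ∧
    ∃ δ : ℕ, ThinTriangles (SimpleGraph.mulCayley S) δ

end Vale.Agent.Lib.P186
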