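import Mathlib
import Vale.Agent.Lib.P186.Defs

namespace Vale.Agent.Lib.P186

open SimpleGraph

variable {V : Type*}

theorem geod_split {Γ : SimpleGraph V} (hc : Γ.Connected) {x y : V} (p : Γ.Walk x y)
    (hp : p.length = Γ.dist x y) {a : V} (ha : a ∈ p.support) :
    Γ.dist x a + Γ.dist a y = Γ.dist x y := by
  classical
  have h1 := congrArg Walk.length (p.take_spec ha)
  rw [Walk.length_append] at h1
  have h2 := dist_le (p.takeUntil a ha)
  have h3 := dist_le (p.dropUntil a ha)
  have h4 := hc.dist_triangle (u := x) (v := a) (w := y)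
  omega

theorem geod_getVert {Γ : SimpleGraph V} (hc : Γ.Connected) {x y : V} (p : Γ.Walk x y)
    (hp : p.length = Γ.dist x y) {i : ℕ} (hi : i ≤ p.length) :
    Γ.dist x (p.getVert i) = i ∧ Γ.dist (p.getVert i) y = p.length - i := by
  have h2 := dist_le (p.take i)
  have h3 := dist_le (p.drop i)
  rw [Walk.take_length] at h2
  rw [Walk.drop_length] at h3
  have h4 := hc.dist_triangle (u := x) (v := p.getVert i) (w := y)
  have h5 : i ⊓ p.length = i := min_eq_left hi
  omega

/-- The graph in which two distinct vertices are adjacent when their distance is at most `r`. -/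
def scaled (Γ : SimpleGraph V) (r : ℕ) : SimpleGraph V :=
  SimpleGraph.fromRel (fun x y => Γ.dist x y ≤ r)

theorem scaled_adj {Γ : SimpleGraph V} {r : ℕ} {x y : V} :
    (scaled Γ r).Adj x y ↔ x ≠ y ∧ Γ.dist x y ≤ r := by
  unfold scaled
  rw [SimpleGraph.fromRel_adj, dist_comm (u := y) (v := x), or_self]

theorem dist_le_scaled_walk {Γ : SimpleGraph V} (hc : Γ.Connected) {r : ℕ} {x y : V}
    (w : (scaled Γ r).Walk x y) : Γ.dist x y ≤ r * w.length := by
  induction w with
  | nil => simp
  | @cons u v w h p ih =>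
    have h1 := (scaled_adj.mp h).2
    have h2 := hc.dist_triangle (u := u) (v := v) (w := w)
    rw [Walk.length_cons, Nat.mul_add, Nat.mul_one]
    omega

theorem scaled_walk {Γ : SimpleGraph V} (hc : Γ.Connected) {r : ℕ} (hr : 0 < r) :
    ∀ (n : ℕ) (x y : V), Γ.dist x y ≤ n * r → ∃ w : (scaled Γ r).Walk x y, w.length ≤ n := by
  intro n
  induction n with
  | zero =>
    intro x y h
    have h0 : Γ.dist x y = 0 := by omega
    have hxy : x = y := hc.dist_eq_zero_iff.mp h0
    subst hxy
    exact ⟨Walk.nil, by simp⟩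
  | succ n ih =>
    intro x y h
    by_cases hle : Γ.dist x y ≤ r
    · by_cases hxy : x = y
      · subst hxy
        exact ⟨Walk.nil, by simp⟩
      · exact ⟨Walk.cons (scaled_adj.mpr ⟨hxy, hle⟩) Walk.nil, by simp⟩
    · obtain ⟨p, hp⟩ := hc.exists_walk_length_eq_dist x y
      have hi : r ≤ p.length := by omega
      obtain ⟨h1, h2⟩ := geod_getVert hc p hp hi
      have hne : x ≠ p.getVert r := by
        intro hx
        rw [← hx] at h1
        simp at h1
        omega
      have hadj : (scaled Γ r).Adj x (p.getVert r) := scaled_adj.mpr ⟨hne, by omega⟩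
      have h3 : Γ.dist (p.getVert r) y ≤ n * r := by
        have : (n + 1) * r = n * r + r := by ring
        omega
      obtain ⟨w, hw⟩ := ih (p.getVert r) y h3
      exact ⟨Walk.cons hadj w, by simp; omega⟩

theorem scaled_connected {Γ : SimpleGraph V} (hc : Γ.Connected) {r : ℕ} (hr : 0 < r) :
    (scaled Γ r).Connected := by
  have := hc.nonempty
  refine ⟨fun x y => ?_⟩
  obtain ⟨w, _⟩ := scaled_walk hc hr (Γ.dist x y) x y (Nat.le_mul_of_pos_right _ hr)
  exact ⟨w⟩

theorem scaled_dist_le {Γ : SimpleGraph V} (hc : Γ.Connected) {r : ℕ} (hr : 0 < r)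
    {n : ℕ} {x y : V} (h : Γ.dist x y ≤ n * r) : (scaled Γ r).dist x y ≤ n := by
  obtain ⟨w, hw⟩ := scaled_walk hc hr n x y h
  exact le_trans (dist_le w) hw

theorem dist_le_scaled_dist {Γ : SimpleGraph V} (hc : Γ.Connected) {r : ℕ} (hr : 0 < r)
    (x y : V) : Γ.dist x y ≤ r * (scaled Γ r).dist x y := by
  obtain ⟨w, hw⟩ := (scaled_connected hc hr).exists_walk_length_eq_dist x y
  rw [← hw]
  exact dist_le_scaled_walk hc w

/-- A vertex on a geodesic of the scaled graph is almost on a geodesic of the graph. -/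
theorem scaled_geod_excess {Γ : SimpleGraph V} (hc : Γ.Connected) {r : ℕ} (hr : 0 < r)
    {x y : V} (p : (scaled Γ r).Walk x y) (hp : p.length = (scaled Γ r).dist x y)
    {a : V} (ha : a ∈ p.support) :
    Γ.dist x a + Γ.dist a y + 1 ≤ Γ.dist x y + r := by
  have hc' := scaled_connected hc hr
  have h1 := geod_split hc' p hp ha
  have h2 := dist_le_scaled_dist hc hr x a
  have h3 := dist_le_scaled_dist hc hr a y
  rcases Nat.eq_zero_or_pos ((scaled Γ r).dist x y) with h0 | hpos
  · have h4 : (scaled Γ r).dist x a = 0 := by omega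
    have h5 : (scaled Γ r).dist a y = 0 := by omega
    rw [h4, Nat.mul_zero] at h2
    rw [h5, Nat.mul_zero] at h3
    omega
  · obtain ⟨k, hk⟩ : ∃ k, (scaled Γ r).dist x y = k + 1 := ⟨(scaled Γ r).dist x y - 1, by omega⟩
    have h6 : k * r < Γ.dist x y := by
      by_contra hcon
      have := scaled_dist_le hc hr (n := k) (x := x) (y := y) (by omega)
      omega
    have h7 : r * (scaled Γ r).dist x a + r * (scaled Γ r).dist a y = r * (k + 1) := by
      rw [← Nat.mul_add, h1, hk]
    have h8 : r * (k + 1) = k * r + r := by ring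
    omega

/-- Projection of an almost-geodesic point onto a geodesic in a graph with thin triangles. -/
theorem proj {Γ : SimpleGraph V} (hc : Γ.Connected) {δ : ℕ} (ht : ThinTriangles Γ δ)
    {x y : V} (α : Γ.Walk x y) (hα : α.length = Γ.dist x y) (v : V) (e : ℕ)
    (he : Γ.dist x v + Γ.dist v y ≤ Γ.dist x y + e) :
    ∃ a' ∈ α.support, 2 * Γ.dist v a' ≤ e + 4 * δ + 2 := by
  obtain ⟨σ, hσ⟩ := hc.exists_walk_length_eq_dist x v
  obtain ⟨τ, hτ⟩ := hc.exists_walk_length_eq_dist v y
  have hthin := ht x v y σ τ α hσ hτ hα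
  by_cases hv : ∃ b ∈ α.support, Γ.dist v b ≤ δ
  · obtain ⟨b, hb, hbd⟩ := hv
    exact ⟨b, hb, by omega⟩
  · obtain ⟨d, hd, hd1, hd2⟩ := σ.exists_boundary_dart {u | ∃ b ∈ α.support, Γ.dist u b ≤ δ}
      ⟨x, α.start_mem_support, by simp⟩ hv
    obtain ⟨a', ha', hua'⟩ := hd1
    have hu := σ.dart_fst_mem_support_of_mem_darts hd
    have hu' := σ.dart_snd_mem_support_of_mem_darts hd
    obtain ⟨b, hb, hbd⟩ := hthin _ hu'
    have hbτ : b ∈ τ.support := by
      rcases hb with hb | hb
      · exact hb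
      · exact absurd ⟨b, hb, hbd⟩ hd2
    have hadj : Γ.dist d.fst d.snd = 1 := dist_eq_one_iff_adj.mpr d.adj
    have s1 := geod_split hc σ hσ hu
    have s2 := geod_split hc τ hτ hbτ
    have t1 := hc.dist_triangle (u := d.fst) (v := d.snd) (w := b)
    have t2 := hc.dist_triangle (u := x) (v := d.fst) (w := b)
    have t3 := hc.dist_triangle (u := x) (v := b) (w := y)
    have t4 := hc.dist_triangle (u := d.fst) (v := b) (w := v)
    have t5 := hc.dist_triangle (u := v) (v := d.fst) (w := a')
    have c1 := dist_comm (G := Γ) (u := b) (v := v)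
    have c2 := dist_comm (G := Γ) (u := v) (v := d.fst)
    exact ⟨a', ha', by omega⟩

end Vale.Agent.Lib.P186
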