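import Mathlib
import Vale.Agent.Lib.P186.Defs
import Vale.Agent.Lib.P186.Graph

namespace Vale.Agent.Lib.P186

open SimpleGraph

variable {V : Type*}

/-- A point of a geodesic lying between the feet of two nearby vertices is near one of them. -/
theorem near {Γ : SimpleGraph V} (hc : Γ.Connected) {δ : ℕ} (ht : ThinTriangles Γ δ)
    {r : ℕ} {y z : V} (β : Γ.Walk y z) (hβ : β.length = Γ.dist y z)
    {b' : V} (hb' : b' ∈ β.support) {u u' c c' : V}
    (huu : Γ.dist u u' ≤ r) (hc1 : c ∈ β.support) (hc2 : c' ∈ β.support)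
    (hk : 2 * Γ.dist u c ≤ r + 4 * δ + 1) (hk' : 2 * Γ.dist u' c' ≤ r + 4 * δ + 1)
    (hpos : Γ.dist y c ≤ Γ.dist y b') (hpos' : Γ.dist y b' ≤ Γ.dist y c') :
    2 * Γ.dist b' u ≤ r + 12 * δ + 1 ∨ 2 * Γ.dist b' u' ≤ r + 12 * δ + 1 := by
  obtain ⟨ρ₁, hρ₁⟩ := hc.exists_walk_length_eq_dist y u
  obtain ⟨ρ₂, hρ₂⟩ := hc.exists_walk_length_eq_dist u z
  obtain ⟨ρ₃, hρ₃⟩ := hc.exists_walk_length_eq_dist u' z
  obtain ⟨μ, hμ⟩ := hc.exists_walk_length_eq_dist u u'
  have sb := geod_split hc β hβ hb'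
  have sc := geod_split hc β hβ hc1
  have sc' := geod_split hc β hβ hc2
  obtain ⟨w, hw, hwd⟩ := ht y z u β ρ₂.reverse ρ₁ hβ
    (by rw [Walk.length_reverse, hρ₂, dist_comm]) hρ₁ b' hb'
  rcases hw with hw | hw
  · rw [Walk.support_reverse, List.mem_reverse] at hw
    obtain ⟨w', hw', hwd'⟩ := ht u z u' ρ₂ ρ₃.reverse μ hρ₂
      (by rw [Walk.length_reverse, hρ₃, dist_comm]) hμ w hw
    rcases hw' with hw' | hw'
    · rw [Walk.support_reverse, List.mem_reverse] at hw'
      right
      have s3 := geod_split hc ρ₃ hρ₃ hw'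
      have t1 := hc.dist_triangle (u := u') (v := c') (w := z)
      have t2 := hc.dist_triangle (u := b') (v := w) (w := w')
      have t3 := hc.dist_triangle (u := b') (v := w') (w := z)
      have t4 := hc.dist_triangle (u := b') (v := w') (w := u')
      have c1 := dist_comm (G := Γ) (u := w') (v := u')
      omega
    · have s3 := geod_split hc μ hμ hw'
      have t2 := hc.dist_triangle (u := b') (v := w) (w := w')
      have t4 := hc.dist_triangle (u := b') (v := w') (w := u')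
      have t5 := hc.dist_triangle (u := b') (v := w') (w := u)
      have c1 := dist_comm (G := Γ) (u := w') (v := u)
      rcases Nat.le_total (Γ.dist u w') (Γ.dist w' u') with h | h
      · left; omega
      · right; omega
  · left
    have s1 := geod_split hc ρ₁ hρ₁ hw
    have t1 := hc.dist_triangle (u := y) (v := c) (w := u)
    have t2 := hc.dist_triangle (u := y) (v := w) (w := b')
    have t3 := hc.dist_triangle (u := b') (v := w) (w := u)
    have c1 := dist_comm (G := Γ) (u := c) (v := u)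
    have c2 := dist_comm (G := Γ) (u := w) (v := b')
    omega

/-- A point of a geodesic is near a vertex of any geodesic of the scaled graph with the
same endpoints. -/
theorem between {Γ : SimpleGraph V} (hc : Γ.Connected) {δ : ℕ} (ht : ThinTriangles Γ δ)
    {r : ℕ} (hr : 0 < r) {y z : V} (β : Γ.Walk y z) (hβ : β.length = Γ.dist y z)
    (q : (scaled Γ r).Walk y z) (hq : q.length = (scaled Γ r).dist y z)
    {b' : V} (hb' : b' ∈ β.support) :
    ∃ b ∈ q.support, 2 * Γ.dist b' b ≤ r + 12 * δ + 1 := by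
  have foot : ∀ v ∈ q.support, ∃ c ∈ β.support, 2 * Γ.dist v c ≤ r + 4 * δ + 1 := by
    intro v hv
    have h1 := scaled_geod_excess hc hr q hq hv
    obtain ⟨c, hc1, hc2⟩ := proj hc ht β hβ v (r - 1) (by omega)
    exact ⟨c, hc1, by omega⟩
  have sb := geod_split hc β hβ hb'
  by_cases hz : ∃ c ∈ β.support, 2 * Γ.dist z c ≤ r + 4 * δ + 1 ∧ Γ.dist y c ≤ Γ.dist y b'
  · obtain ⟨c, hc1, hc2, hc3⟩ := hz
    have := near hc ht β hβ hb' (u := z) (u' := z) (c := c) (c' := z) (r := r)
      (by simp) hc1 β.end_mem_support hc2 (by simp) hc3 (by omega)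
    exact ⟨z, q.end_mem_support, by tauto⟩
  · obtain ⟨d, hd, hd1, hd2⟩ := q.exists_boundary_dart
      {v | ∃ c ∈ β.support, 2 * Γ.dist v c ≤ r + 4 * δ + 1 ∧ Γ.dist y c ≤ Γ.dist y b'}
      ⟨y, β.start_mem_support, by simp, by simp⟩ hz
    obtain ⟨c, hc1, hc2, hc3⟩ := hd1
    have hu := q.dart_fst_mem_support_of_mem_darts hd
    have hu' := q.dart_snd_mem_support_of_mem_darts hd
    obtain ⟨c', hc1', hc2'⟩ := foot _ hu'
    have hc3' : Γ.dist y b' ≤ Γ.dist y c' := by
      by_contra hcon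
      exact hd2 ⟨c', hc1', hc2', by omega⟩
    have hadj := (scaled_adj.mp d.adj).2
    rcases near hc ht β hβ hb' hadj hc1 hc1' hc2 hc2' hc3 hc3' with h | h
    · exact ⟨_, hu, h⟩
    · exact ⟨_, hu', h⟩

/-- Rescaling: if a connected graph has `δ`-thin triangles and `9 δ + 1 ≤ r`, then the graph
joining vertices at distance at most `r` has `2`-thin triangles. -/
theorem thin_scaled {Γ : SimpleGraph V} (hc : Γ.Connected) {δ : ℕ} (ht : ThinTriangles Γ δ)
    {r : ℕ} (hr : 9 * δ + 1 ≤ r) : ThinTriangles (scaled Γ r) 2 := by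
  have hr0 : 0 < r := by omega
  intro x y z p q s hp hq hs a ha
  obtain ⟨α, hα⟩ := hc.exists_walk_length_eq_dist x y
  obtain ⟨β, hβ⟩ := hc.exists_walk_length_eq_dist y z
  obtain ⟨γ, hγ⟩ := hc.exists_walk_length_eq_dist x z
  have h1 := scaled_geod_excess hc hr0 p hp ha
  obtain ⟨a', ha', had⟩ := proj hc ht α hα a (r - 1) (by omega)
  obtain ⟨b', hb', hbd⟩ := ht x y z α β γ hα hβ hγ a' ha'
  have key : ∀ b, 2 * Γ.dist b' b ≤ r + 12 * δ + 1 → (scaled Γ r).dist a b ≤ 2 := by
    intro b hb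
    apply scaled_dist_le hc hr0
    have t1 := hc.dist_triangle (u := a) (v := a') (w := b')
    have t2 := hc.dist_triangle (u := a) (v := b') (w := b)
    omega
  rcases hb' with hb' | hb'
  · obtain ⟨b, hb1, hb2⟩ := between hc ht hr0 β hβ q hq hb'
    exact ⟨b, Or.inl hb1, key b hb2⟩
  · obtain ⟨b, hb1, hb2⟩ := between hc ht hr0 γ hγ s hs hb'
    exact ⟨b, Or.inr hb1, key b hb2⟩

end Vale.Agent.Lib.P186
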