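import Mathlib
import Vale.Agent.Lib.P186.Defs
import Vale.Agent.Lib.P186.Graph
import Vale.Agent.Lib.P186.Rescale

namespace Vale.Agent.Lib.P186

open SimpleGraph

variable {G : Type*} [Group G]

theorem cayley_reach (S : Set G) (g : G) (hg : g ∈ Subgroup.closure S) :
    ∀ x : G, (mulCayley S).Reachable x (x * g) := by
  induction hg using Subgroup.closure_induction with
  | mem s hs =>
    intro x
    by_cases h : x = x * s
    · rw [← h]
    · exact (((mulCayley_adj S x (x * s)).mpr ⟨h, Or.inl (by simpa using hs)⟩)).reachable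
  | one => intro x; simp
  | mul a b _ _ iha ihb =>
    intro x
    rw [← mul_assoc]
    exact (iha x).trans (ihb (x * a))
  | inv a _ iha =>
    intro x
    have := iha (x * a⁻¹)
    simp only [inv_mul_cancel_right] at this
    exact this.symm

theorem cayley_connected {S : Set G} (hS : Subgroup.closure S = ⊤) :
    (mulCayley S).Connected := by
  have : Nonempty G := ⟨1⟩
  refine ⟨fun x y => ?_⟩
  have := cayley_reach S (x⁻¹ * y) (by rw [hS]; trivial) x
  simpa using this

/-- Left multiplication as a graph homomorphism of the Cayley graph. -/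
def mulLeftHom (S : Set G) (g : G) : mulCayley S →g mulCayley S where
  toFun := fun x => g * x
  map_rel' := fun h => mulCayley_adj_mul_iff_right.mpr h

theorem cayley_dist_le {S : Set G} (hS : Subgroup.closure S = ⊤) (g x y : G) :
    (mulCayley S).dist (g * x) (g * y) ≤ (mulCayley S).dist x y := by
  obtain ⟨w, hw⟩ := (cayley_connected hS).exists_walk_length_eq_dist x y
  have := dist_le (w.map (mulLeftHom S g))
  rw [Walk.length_map, hw] at this
  exact this

theorem cayley_dist_mul_left {S : Set G} (hS : Subgroup.closure S = ⊤) (g x y : G) :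
    (mulCayley S).dist (g * x) (g * y) = (mulCayley S).dist x y := by
  apply le_antisymm (cayley_dist_le hS g x y)
  have := cayley_dist_le hS g⁻¹ (g * x) (g * y)
  simpa using this

theorem ball_finite {S : Set G} (hS : Subgroup.closure S = ⊤) (hfin : S.Finite) (n : ℕ) :
    {g : G | (mulCayley S).dist 1 g ≤ n}.Finite := by
  have hc := cayley_connected hS
  induction n with
  | zero =>
    refine (Set.finite_singleton (1 : G)).subset ?_
    intro g hg
    have h0 : (mulCayley S).dist 1 g = 0 := Nat.le_zero.mp hg
    exact (hc.dist_eq_zero_iff.mp h0).symm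
  | succ n ih =>
    refine ((ih.union (ih.mul hfin)).union (ih.mul hfin.inv)).subset ?_
    intro g hg
    by_cases hle : (mulCayley S).dist 1 g ≤ n
    · exact Or.inl (Or.inl hle)
    · have hg' : (mulCayley S).dist 1 g ≤ n + 1 := hg
      obtain ⟨p, hp⟩ := hc.exists_walk_length_eq_dist 1 g
      have hi : n ≤ p.length := by omega
      obtain ⟨h1, h2⟩ := geod_getVert hc p hp hi
      have h3 : (mulCayley S).dist (p.getVert n) g = 1 := by omega
      have hadj := (mulCayley_adj S _ _).mp (dist_eq_one_iff_adj.mp h3)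
      rcases hadj.2 with h | h
      · refine Or.inl (Or.inr ?_)
        exact ⟨p.getVert n, by simp [h1], (p.getVert n)⁻¹ * g, h, by simp⟩
      · refine Or.inr ?_
        exact ⟨p.getVert n, by simp [h1], (g⁻¹ * p.getVert n)⁻¹, by simpa using h, by simp⟩

/-- The nontrivial elements of the ball of radius `r` in the word metric. -/
def ballGen (S : Set G) (r : ℕ) : Set G := {g : G | g ≠ 1 ∧ (mulCayley S).dist 1 g ≤ r}

theorem ballGen_finite {S : Set G} (hS : Subgroup.closure S = ⊤) (hfin : S.Finite) (r : ℕ) :
    (ballGen S r).Finite :=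
  (ball_finite hS hfin r).subset fun _ hg => hg.2

theorem ballGen_closure {S : Set G} (hS : Subgroup.closure S = ⊤) {r : ℕ} (hr : 0 < r) :
    Subgroup.closure (ballGen S r) = ⊤ := by
  rw [eq_top_iff, ← hS, ← Subgroup.closure_sdiff_one S]
  apply Subgroup.closure_mono
  intro s hs
  have hs1 : s ≠ 1 := fun h => hs.2 (by simp [h])
  refine ⟨hs1, ?_⟩
  have hadj : (mulCayley S).Adj 1 s :=
    (mulCayley_adj S 1 s).mpr ⟨fun h => hs1 h.symm, Or.inl (by simpa using hs.1)⟩
  have := dist_eq_one_iff_adj.mpr hadj
  omega

theorem cayley_ballGen {S : Set G} (hS : Subgroup.closure S = ⊤) (r : ℕ) :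
    mulCayley (ballGen S r) = scaled (mulCayley S) r := by
  ext x y
  rw [mulCayley_adj, scaled_adj]
  have h1 : (mulCayley S).dist 1 (x⁻¹ * y) = (mulCayley S).dist x y := by
    have := cayley_dist_mul_left hS x 1 (x⁻¹ * y)
    simpa using this.symm
  have h2 : (mulCayley S).dist 1 (y⁻¹ * x) = (mulCayley S).dist x y := by
    have := cayley_dist_mul_left hS y 1 (y⁻¹ * x)
    rw [dist_comm (u := x) (v := y)]
    simpa using this.symm
  constructor
  · rintro ⟨hne, h | h⟩
    · exact ⟨hne, by rw [← h1]; exact h.2⟩
    · exact ⟨hne, by rw [← h2]; exact h.2⟩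
  · rintro ⟨hne, h⟩
    refine ⟨hne, Or.inl ⟨?_, by rw [h1]; exact h⟩⟩
    intro h'
    exact hne (by simpa [inv_mul_eq_one] using h')

/-- Every word-hyperbolic group has a finite generating set whose Cayley graph has
`2`-thin geodesic triangles. -/
theorem uniform_thin (G : Type*) [Group G] (h : IsWordHyperbolic G) :
    ∃ T : Set G, T.Finite ∧ Subgroup.closure T = ⊤ ∧ ThinTriangles (mulCayley T) 2 := by
  obtain ⟨S, hfin, hS, δ, ht⟩ := h
  refine ⟨ballGen S (9 * δ + 1), ballGen_finite hS hfin _, ballGen_closure hS (by omega), ?_⟩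
  rw [cayley_ballGen hS]
  exact thin_scaled (cayley_connected hS) ht (le_refl _)

end Vale.Agent.Lib.P186
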