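import Mathlib
import Vale.Agent.Lib.P186.Defs
import Vale.Agent.Lib.P186.Graph
import Vale.Agent.Lib.P186.Rescale
import Vale.Agent.Lib.P186.Cayley

namespace Vale.Agent.Lib.P186

open SimpleGraph

universe u

/-- Every word-hyperbolic group has, for any prescribed finite set `F`, a finite generating
set containing the nontrivial elements of `F` whose Cayley graph has `2`-thin triangles. -/
theorem uniform_thin_containing (G : Type*) [Group G] (h : IsWordHyperbolic G)
    (F : Set G) (hF : F.Finite) :
    ∃ T : Set G, T.Finite ∧ Subgroup.closure T = ⊤ ∧ F \ {1} ⊆ T ∧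
      ThinTriangles (mulCayley T) 2 := by
  obtain ⟨S, hfin, hS, δ, ht⟩ := h
  obtain ⟨N, hN⟩ := (hF.image (fun f => (mulCayley S).dist 1 f)).bddAbove
  refine ⟨ballGen S (max (9 * δ + 1) N), ballGen_finite hS hfin _,
    ballGen_closure hS (by omega), ?_, ?_⟩
  · intro f hf
    refine ⟨fun h1 => hf.2 (by simp [h1]), ?_⟩
    have : (mulCayley S).dist 1 f ≤ N := hN ⟨f, hf.1, rfl⟩
    exact le_trans this (le_max_right _ _)
  · rw [cayley_ballGen hS]
    exact thin_scaled (cayley_connected hS) ht (le_max_left _ _)

/-- Residual finiteness of all word-hyperbolic groups is equivalent to the separation of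
each generator from the identity in every Cayley graph with `2`-thin triangles. -/
theorem separation_reduction :
    (∀ (G : Type u) [Group G], IsWordHyperbolic G → Group.ResiduallyFinite G) ↔
    (∀ (G : Type u) [Group G] (T : Set G), T.Finite → Subgroup.closure T = ⊤ →
      ThinTriangles (mulCayley T) 2 →
      ∀ t ∈ T, t ≠ 1 → ∃ H : Subgroup G, H.FiniteIndex ∧ t ∉ H) := by
  constructor
  · intro h G _ T hfin hgen hthin t _ ht1
    have hyp : IsWordHyperbolic G := ⟨T, hfin, hgen, 2, hthin⟩
    have := h G hyp
    exact (Group.residuallyFinite_iff_exists_finiteIndex.mp this) t ht1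
  · intro h G _ hyp
    rw [Group.residuallyFinite_iff_exists_finiteIndex]
    intro g hg
    obtain ⟨T, hfin, hgen, hsub, hthin⟩ :=
      uniform_thin_containing G hyp {g} (Set.finite_singleton g)
    exact h G T hfin hgen hthin g (hsub ⟨rfl, hg⟩) hg

end Vale.Agent.Lib.P186
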